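import Mathlib

namespace Vale.Agent.Results.P038.SmallCodegree

open Finset

variable {V : Type*} [Fintype V] [DecidableEq V]

/-- First out-neighbourhood of `v` in the digraph with arc relation `A`. -/
def N1 (A : V → V → Prop) [DecidableRel A] (v : V) : Finset V :=
  univ.filter (fun u => A v u)

/-- Second out-neighbourhood of `v`: vertices at directed distance exactly two from `v`. -/
def N2 (A : V → V → Prop) [DecidableRel A] (v : V) : Finset V :=
  univ.filter (fun w => w ≠ v ∧ ¬ A v w ∧ ∃ u, A v u ∧ A u w)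

/-- Out-neighbours of an out-neighbour of `v` lie in the first or second out-neighbourhood. -/
lemma N1_subset (A : V → V → Prop) [DecidableRel A] (horient : ∀ u v, A u v → ¬ A v u)
    (v u : V) (hu : A v u) : N1 A u ⊆ N1 A v ∪ N2 A v := by
  intro w hw
  simp only [N1, N2, mem_union, mem_filter, mem_univ, true_and] at hw ⊢
  by_cases h : A v w
  · exact Or.inl h
  · refine Or.inr ⟨?_, h, u, hu, hw⟩
    rintro rfl
    exact horient _ _ hu hw

/-- The counting core: if `X` is the number of arcs leaving `H = N1 v`, all of them end in `W`,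
and two distinct members of `H` have at most `t` common out-neighbours, then
`X ^ 2 ≤ |W| * (X + |H| * (|H| - 1) * t)`. -/
lemma counting (A : V → V → Prop) [DecidableRel A] (H W : Finset V) (t : ℕ)
    (hsub : ∀ u ∈ H, N1 A u ⊆ W)
    (hco : ∀ u ∈ H, ∀ u' ∈ H, u ≠ u' → (N1 A u ∩ N1 A u').card ≤ t) :
    (∑ u ∈ H, (N1 A u).card) ^ 2 ≤
      W.card * ((∑ u ∈ H, (N1 A u).card) + H.card * (H.card - 1) * t) := by
  set f : V → V → ℕ := fun u w => if A u w then 1 else 0 with hf
  have hcard : ∀ u ∈ H, (N1 A u).card = ∑ w ∈ W, f u w := by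
    intro u hu
    have h1 : N1 A u = W.filter (fun w => A u w) := by
      ext w
      simp only [N1, mem_filter, mem_univ, true_and]
      constructor
      · intro h
        exact ⟨hsub u hu (by simp [N1, h]), h⟩
      · exact fun h => h.2
    rw [h1, card_filter]
  have hX : ∑ u ∈ H, (N1 A u).card = ∑ w ∈ W, ∑ u ∈ H, f u w := by
    rw [sum_comm]
    exact sum_congr rfl hcard
  have hCS := sq_sum_le_card_mul_sum_sq (s := W) (f := fun w => ∑ u ∈ H, f u w)
  have hsq : ∑ w ∈ W, (∑ u ∈ H, f u w) ^ 2 = ∑ u ∈ H, ∑ u' ∈ H, ∑ w ∈ W, f u w * f u' w := by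
    have h1 : ∀ w ∈ W, (∑ u ∈ H, f u w) ^ 2 = ∑ u ∈ H, ∑ u' ∈ H, f u w * f u' w := by
      intro w _
      rw [sq, sum_mul_sum]
    rw [sum_congr rfl h1, sum_comm]
    refine sum_congr rfl (fun u _ => ?_)
    rw [sum_comm]
  have hpair : ∀ u ∈ H, ∀ u' ∈ H, ∑ w ∈ W, f u w * f u' w ≤ (N1 A u ∩ N1 A u').card := by
    intro u _ u' _
    have h1 : ∑ w ∈ W, f u w * f u' w = (W.filter (fun w => A u w ∧ A u' w)).card := by
      rw [card_filter]
      refine sum_congr rfl (fun w _ => ?_)
      simp only [hf]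
      by_cases h1 : A u w <;> by_cases h2 : A u' w <;> simp [h1, h2]
    rw [h1]
    refine card_le_card ?_
    intro w hw
    simp only [N1, mem_inter, mem_filter, mem_univ, true_and] at hw ⊢
    exact hw.2
  have hrow : ∀ u ∈ H, ∑ u' ∈ H, ∑ w ∈ W, f u w * f u' w ≤ (N1 A u).card + (H.card - 1) * t := by
    intro u hu
    rw [← add_sum_erase H _ hu]
    refine add_le_add ?_ ?_
    · refine (hpair u hu u hu).trans ?_
      rw [inter_self]
    · have h2 : ∑ u' ∈ H.erase u, ∑ w ∈ W, f u w * f u' w ≤ ∑ _u' ∈ H.erase u, t := by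
        refine sum_le_sum (fun u' hu' => ?_)
        rw [mem_erase] at hu'
        exact (hpair u hu u' hu'.2).trans (hco u hu u' hu'.2 (Ne.symm hu'.1))
      rw [sum_const, card_erase_of_mem hu, smul_eq_mul] at h2
      exact h2
  have htot : ∑ w ∈ W, (∑ u ∈ H, f u w) ^ 2 ≤
      (∑ u ∈ H, (N1 A u).card) + H.card * (H.card - 1) * t := by
    rw [hsq]
    refine (sum_le_sum hrow).trans (le_of_eq ?_)
    rw [sum_add_distrib, sum_const, smul_eq_mul, mul_assoc]
  rw [hX] at htot ⊢
  exact hCS.trans (Nat.mul_le_mul_left _ htot)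

/-- A vertex `v` of minimum out-degree `d` is a Seymour vertex as soon as any two distinct
out-neighbours of `v` have at most `t` common out-neighbours, where `2 t + 1 ≤ d`. -/
lemma seymour_of_min (A : V → V → Prop) [DecidableRel A]
    (horient : ∀ u v, A u v → ¬ A v u) (t : ℕ)
    (hco : ∀ x u u', A x u → A x u' → u ≠ u' → (N1 A u ∩ N1 A u').card ≤ t)
    (v : V) (hmin : ∀ u, (N1 A v).card ≤ (N1 A u).card)
    (ht : 2 * t + 1 ≤ (N1 A v).card) :
    (N1 A v).card ≤ (N2 A v).card := by
  by_contra hcon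
  push Not at hcon
  set d := (N1 A v).card with hd
  have hmem : ∀ u ∈ N1 A v, A v u := by
    intro u hu
    simpa [N1] using hu
  rcases Nat.lt_or_ge d 2 with hd2 | hd2
  · -- out-degree one
    have hd1 : d = 1 := by omega
    obtain ⟨u, hu⟩ := card_eq_one.1 (hd ▸ hd1)
    have hvu : A v u := hmem u (by rw [hu]; exact mem_singleton_self u)
    have hsub : N1 A u ⊆ N2 A v := by
      intro w hw
      have h1 := N1_subset A horient v u hvu hw
      rcases mem_union.1 h1 with h | h
      · rw [hu, mem_singleton] at h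
        subst h
        have : A w w := by simpa [N1] using hw
        exact absurd this (horient _ _ this)
      · exact h
    have h2 := card_le_card hsub
    have h3 := hmin u
    omega
  · have hcount := counting A (N1 A v) (N1 A v ∪ N2 A v) t
      (fun u hu => N1_subset A horient v u (hmem u hu))
      (fun u hu u' hu' hne => hco v u u' (hmem u hu) (hmem u' hu') hne)
    set X := ∑ u ∈ N1 A v, (N1 A u).card with hX
    have hXge : d * d ≤ X := by
      have : ∑ _u ∈ N1 A v, d ≤ X := sum_le_sum (fun u _ => hmin u)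
      rwa [sum_const, smul_eq_mul, ← hd] at this
    have hW : (N1 A v ∪ N2 A v).card ≤ 2 * d - 1 := by
      have := card_union_le (N1 A v) (N2 A v)
      omega
    have h1 : X ^ 2 ≤ (2 * d - 1) * (X + d * (d - 1) * t) :=
      hcount.trans (Nat.mul_le_mul_right _ hW)
    clear_value d X
    obtain ⟨e, rfl⟩ : ∃ e, d = e + 2 := ⟨d - 2, by omega⟩
    have h2 : 2 * (e + 2) - 1 = 2 * e + 3 := by omega
    have h3 : e + 2 - 1 = e + 1 := by omega
    rw [h2, h3] at h1
    zify at h1 hXge ht
    have ht2 : (2 : ℤ) * t ≤ e + 1 := by linarith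
    have he : (0 : ℤ) ≤ e := by positivity
    have htn : (0 : ℤ) ≤ t := by positivity
    -- X (X - (2e+3)) ≥ (e+2)^2 (e+1)^2 and 2 (2e+3)(e+2)(e+1) t ≤ (2e+3)(e+2)(e+1)^2
    have h4 : ((e : ℤ) + 2) * (e + 2) * (((e : ℤ) + 2) * (e + 2) - (2 * e + 3)) ≤
        (X : ℤ) * (X - (2 * e + 3)) := by
      have hx1 : (0 : ℤ) ≤ (X : ℤ) - ((e : ℤ) + 2) * (e + 2) := by linarith
      nlinarith [mul_nonneg hx1 hx1, mul_nonneg hx1 he, mul_nonneg he he]
    have h5 : (2 * (e : ℤ) + 3) * (((e : ℤ) + 2) * (e + 1) * t) * 2 ≤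
        (2 * (e : ℤ) + 3) * (((e : ℤ) + 2) * (e + 1)) * (e + 1) := by
      have hc : (0 : ℤ) ≤ (2 * (e : ℤ) + 3) * (((e : ℤ) + 2) * (e + 1)) := by positivity
      nlinarith [mul_le_mul_of_nonneg_left ht2 hc]
    nlinarith [mul_nonneg he he, mul_nonneg (mul_nonneg he he) he]

/-- **Codegree criterion.**  Let `D` be a nonempty finite oriented graph with all out-degrees at
least `δ`, in which any two distinct vertices with a common in-neighbour have at most `t` common
out-neighbours, where `2 t + 1 ≤ δ`.  Then `D` has a vertex `v` with `|N1 v| ≤ |N2 v|`; indeed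
every vertex of minimum out-degree is such a vertex. -/
theorem result [Nonempty V] (A : V → V → Prop) [DecidableRel A]
    (horient : ∀ u v, A u v → ¬ A v u) (δ t : ℕ)
    (hδ : ∀ u, δ ≤ (N1 A u).card)
    (hco : ∀ x u u', A x u → A x u' → u ≠ u' → (N1 A u ∩ N1 A u').card ≤ t)
    (ht : 2 * t + 1 ≤ δ) :
    (∃ v, (N1 A v).card ≤ (N2 A v).card) ∧
    ∀ v, (∀ u, (N1 A v).card ≤ (N1 A u).card) → (N1 A v).card ≤ (N2 A v).card := by
  have hall : ∀ v, (∀ u, (N1 A v).card ≤ (N1 A u).card) → (N1 A v).card ≤ (N2 A v).card :=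
    fun v hv => seymour_of_min A horient t hco v hv (ht.trans (hδ v))
  obtain ⟨v, hv⟩ := Finite.exists_min (fun u => (N1 A u).card)
  exact ⟨⟨v, hall v hv⟩, hall⟩

end Vale.Agent.Results.P038.SmallCodegree
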