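import Mathlib

namespace Vale.Agent.Results.P038.VertexTransitive

open Finset MulOpposite
open scoped Pointwise

section Kemperman

variable {G : Type*} [Group G] [DecidableEq G]

lemma card_inter_op_inv (A : Finset G) (e : G) :
    (A ∩ op e⁻¹ • A).card = (A ∩ op e • A).card := by
  have h : op e • (A ∩ op e⁻¹ • A) = A ∩ op e • A := by
    rw [smul_finset_inter, op_inv, smul_inv_smul, inter_comm]
  rw [← h, card_smul_finset]

lemma card_inter_inv (B : Finset G) (e : G) :
    (B ∩ e⁻¹ • B).card = (B ∩ e • B).card := by
  have h : e • (B ∩ e⁻¹ • B) = B ∩ e • B := by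
    rw [smul_finset_inter, smul_inv_smul, inter_comm]
  rw [← h, card_smul_finset]

/-- Kemperman's inequality for a uniquely represented product, in a finite group. -/
theorem kemperman [Fintype G] : ∀ (k a : ℕ) (A B : Finset G),
    A.card + B.card + k = 2 * Fintype.card G → A.card = a →
    1 ∈ A → 1 ∈ B → (∀ x ∈ A, ∀ y ∈ B, x * y = 1 → x = 1) →
    A.card + B.card ≤ (A * B).card + 1 := by
  intro k
  induction k using Nat.strong_induction_on with
  | _ k ihk =>
  intro a
  induction a using Nat.strong_induction_on with
  | _ a iha =>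
  intro A B hk ha hA hB huniq
  have hAsub : A ⊆ A * B := fun x hx => by
    simpa using mul_mem_mul hx hB
  have hBsub : B ⊆ A * B := fun x hx => by
    simpa using mul_mem_mul hA hx
  by_cases hcase : ∃ e, e ∈ A ∧ e ∈ B ∧ e ≠ 1
  · obtain ⟨e, heA, heB, he1⟩ := hcase
    -- the two transformed pairs
    set A1 := A ∪ op e • A with hA1
    set B1 := B ∩ e⁻¹ • B with hB1
    set A2 := A ∩ op e⁻¹ • A with hA2
    set B2 := B ∪ e • B with hB2
    have hsub1 : A1 * B1 ⊆ A * B := by
      have := mulETransformRight.fst_mul_snd_subset e (A, B)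
      simpa [mulETransformRight] using this
    have hsub2 : A2 * B2 ⊆ A * B := by
      have := mulETransformLeft.fst_mul_snd_subset e⁻¹ (A, B)
      simp only [mulETransformLeft, inv_inv] at this
      exact this
    have c1 : A1.card + (A ∩ op e • A).card = 2 * A.card := by
      rw [hA1, card_union_add_card_inter, card_smul_finset]; ring
    have c2 : A2.card = (A ∩ op e • A).card := card_inter_op_inv A e
    have c3 : B2.card + (B ∩ e • B).card = 2 * B.card := by
      rw [hB2, card_union_add_card_inter, card_smul_finset]; ring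
    have c4 : B1.card = (B ∩ e • B).card := card_inter_inv B e
    have hα : (A ∩ op e • A).card < A.card := by
      by_contra hcon
      push Not at hcon
      have heq : A ∩ op e • A = A := eq_of_subset_of_card_le inter_subset_left hcon
      have h1 : (1 : G) ∈ op e • A := by
        have : (1 : G) ∈ A ∩ op e • A := by rw [heq]; exact hA
        exact (mem_inter.1 this).2
      obtain ⟨x, hx, hxe⟩ := mem_smul_finset.1 h1
      have hxe' : x * e = 1 := by simpa using hxe
      have := huniq x hx e heB hxe'
      subst this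
      exact he1 (by simpa using hxe')
    have hβ : (B ∩ e • B).card < B.card := by
      by_contra hcon
      push Not at hcon
      have heq : B ∩ e • B = B := eq_of_subset_of_card_le inter_subset_left hcon
      have h1 : (1 : G) ∈ e • B := by
        have : (1 : G) ∈ B ∩ e • B := by rw [heq]; exact hB
        exact (mem_inter.1 this).2
      obtain ⟨y, hy, hey⟩ := mem_smul_finset.1 h1
      have hey' : e * y = 1 := by simpa using hey
      exact he1 (huniq e heA y hy hey')
    -- hypotheses for the first pair
    have h1A1 : (1 : G) ∈ A1 := mem_union_left _ hA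
    have h1B1 : (1 : G) ∈ B1 := by
      refine mem_inter.2 ⟨hB, mem_smul_finset.2 ⟨e, heB, by simp⟩⟩
    have hu1 : ∀ x ∈ A1, ∀ y ∈ B1, x * y = 1 → x = 1 := by
      intro x hx y hy hxy
      obtain ⟨hyB, hy2⟩ := mem_inter.1 hy
      rcases mem_union.1 hx with hx | hx
      · exact huniq x hx y hyB hxy
      · exfalso
        obtain ⟨x', hx', rfl⟩ := mem_smul_finset.1 hx
        obtain ⟨y', hy', rfl⟩ := mem_smul_finset.1 hy2
        have h2 : x' * y' = 1 := by simpa [mul_assoc] using hxy
        have h3 := huniq x' hx' y' hy' h2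
        subst h3
        have h4 : y' = 1 := by simpa using h2
        subst h4
        -- now e⁻¹ ∈ B
        have h5 : e⁻¹ ∈ B := by simpa using hyB
        exact he1 (huniq e heA e⁻¹ h5 (by simp))
    -- hypotheses for the second pair
    have h1A2 : (1 : G) ∈ A2 := by
      refine mem_inter.2 ⟨hA, mem_smul_finset.2 ⟨e, heA, by simp⟩⟩
    have h1B2 : (1 : G) ∈ B2 := mem_union_left _ hB
    have hu2 : ∀ x ∈ A2, ∀ y ∈ B2, x * y = 1 → x = 1 := by
      intro x hx y hy hxy
      obtain ⟨hxA, hx2⟩ := mem_inter.1 hx
      rcases mem_union.1 hy with hy | hy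
      · exact huniq x hxA y hy hxy
      · exfalso
        obtain ⟨x', hx', rfl⟩ := mem_smul_finset.1 hx2
        obtain ⟨y', hy', rfl⟩ := mem_smul_finset.1 hy
        have h2 : x' * y' = 1 := by simpa [mul_assoc] using hxy
        have h3 := huniq x' hx' y' hy' h2
        subst h3
        have h5 : e⁻¹ ∈ A := by simpa using hxA
        have h6 := huniq e⁻¹ h5 e heB (by simp)
        exact he1 (by simpa using h6)
    have hN1 : A1.card + B1.card ≤ 2 * Fintype.card G := by
      have := card_le_univ A1
      have := card_le_univ B1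
      omega
    have hN2 : A2.card + B2.card ≤ 2 * Fintype.card G := by
      have := card_le_univ A2
      have := card_le_univ B2
      omega
    have hc1 := card_le_card hsub1
    have hc2 := card_le_card hsub2
    rcases Nat.lt_or_ge (A.card + B.card) (A1.card + B1.card) with hlt | hge
    · -- the first pair has a larger sum
      have := ihk (2 * Fintype.card G - (A1.card + B1.card)) (by omega) A1.card A1 B1 (by omega) rfl
        h1A1 h1B1 hu1
      omega
    · rcases Nat.lt_or_ge (A.card + B.card) (A2.card + B2.card) with hlt2 | hge2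
      · have := ihk (2 * Fintype.card G - (A2.card + B2.card)) (by omega) A2.card A2 B2 (by omega) rfl
          h1A2 h1B2 hu2
        omega
      · have := iha A2.card (by omega) A2 B2 (by omega) rfl h1A2 h1B2 hu2
        omega
  · -- `A ∩ B = {1}`
    push Not at hcase
    have hinter : A ∩ B = {1} := by
      ext x
      simp only [mem_inter, mem_singleton]
      constructor
      · rintro ⟨h1, h2⟩
        exact hcase x h1 h2
      · rintro rfl
        exact ⟨hA, hB⟩
    have h1 := card_union_add_card_inter A B
    rw [hinter, card_singleton] at h1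
    have h2 := card_le_card (union_subset hAsub hBsub)
    omega

end Kemperman

section Digraph

variable {V : Type*} [Fintype V] [DecidableEq V]

/-- First out-neighbourhood of `v` in the digraph with arc relation `A`. -/
def N1 (A : V → V → Prop) [DecidableRel A] (v : V) : Finset V :=
  univ.filter (fun u => A v u)

/-- Second out-neighbourhood of `v`: vertices at directed distance exactly two from `v`. -/
def N2 (A : V → V → Prop) [DecidableRel A] (v : V) : Finset V :=
  univ.filter (fun w => w ≠ v ∧ ¬ A v w ∧ ∃ u, A v u ∧ A u w)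

/-- `φ` is an automorphism of the digraph with arc relation `A`. -/
def IsAut (A : V → V → Prop) (φ : Equiv.Perm V) : Prop := ∀ u w, A (φ u) (φ w) ↔ A u w

omit [Fintype V] [DecidableEq V] in
lemma IsAut.mul {A : V → V → Prop} {φ ψ : Equiv.Perm V} (hφ : IsAut A φ) (hψ : IsAut A ψ) :
    IsAut A (φ * ψ) := fun u w => by
  rw [Equiv.Perm.mul_apply, Equiv.Perm.mul_apply, hφ, hψ]

omit [Fintype V] [DecidableEq V] in
lemma IsAut.inv {A : V → V → Prop} {φ : Equiv.Perm V} (hφ : IsAut A φ) : IsAut A φ⁻¹ :=
  fun u w => by
  have := hφ (φ⁻¹ u) (φ⁻¹ w)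
  have h1 : ∀ x, φ (φ⁻¹ x) = x := fun x => φ.apply_symm_apply x
  rw [h1, h1] at this
  exact this.symm

lemma two_step_mem (A : V → V → Prop) [DecidableRel A] (horient : ∀ u v, A u v → ¬ A v u)
    (v u w : V) (hu : A v u) (hw : A u w) : w ∈ N1 A v ∪ N2 A v := by
  simp only [N1, N2, mem_union, mem_filter, mem_univ, true_and]
  by_cases h : A v w
  · exact Or.inl h
  · refine Or.inr ⟨?_, h, u, hu, hw⟩
    rintro rfl
    exact horient _ _ hu hw

/-- **Seymour's second neighbourhood conjecture for vertex-transitive oriented graphs.**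
In a finite oriented graph whose automorphism group acts transitively on the vertices, every
vertex `v` satisfies `|N1 v| ≤ |N2 v|`. -/
theorem result (A : V → V → Prop) [DecidableRel A]
    (horient : ∀ u v, A u v → ¬ A v u)
    (htrans : ∀ x y : V, ∃ φ : Equiv.Perm V, IsAut A φ ∧ φ x = y) (v : V) :
    (N1 A v).card ≤ (N2 A v).card := by
  classical
  set Aut : Finset (Equiv.Perm V) := univ.filter (fun g => IsAut A g) with hAut
  set fib : V → Finset (Equiv.Perm V) := fun w => Aut.filter (fun g => g v = w) with hfib
  set m := (fib v).card with hm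
  have hmemAut : ∀ g, g ∈ Aut ↔ IsAut A g := fun g => by simp [hAut]
  have hone : IsAut A (1 : Equiv.Perm V) := fun u w => Iff.rfl
  have hmpos : 0 < m := card_pos.2 ⟨1, by simp [hfib, hmemAut, hone]⟩
  have hfibcard : ∀ w, (fib w).card = m := by
    intro w
    obtain ⟨φ, hφ, hφv⟩ := htrans v w
    symm
    refine card_bij (fun g _ => φ * g) ?_ ?_ ?_
    · intro g hg
      simp only [hfib, mem_filter, hmemAut] at hg ⊢
      exact ⟨hφ.mul hg.1, by rw [Equiv.Perm.mul_apply, hg.2, hφv]⟩
    · intro g _ g' _ h
      exact mul_left_cancel h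
    · intro h hh
      simp only [hfib, mem_filter, hmemAut] at hh
      refine ⟨φ⁻¹ * h, ?_, by simp⟩
      simp only [hfib, mem_filter, hmemAut]
      refine ⟨hφ.inv.mul hh.1, ?_⟩
      rw [Equiv.Perm.mul_apply, hh.2, ← hφv]
      simp
  -- counting automorphisms by the image of `v`
  have hcount : ∀ X : Finset V, (Aut.filter (fun g => g v ∈ X)).card = X.card * m := by
    intro X
    have hmaps : ((Aut.filter (fun g => g v ∈ X) : Finset (Equiv.Perm V)) :
        Set (Equiv.Perm V)).MapsTo (fun g : Equiv.Perm V => g v) X := by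
      intro g hg
      exact (mem_filter.1 (mem_coe.1 hg)).2
    rw [card_eq_sum_card_fiberwise hmaps]
    have : ∀ w ∈ X, ((Aut.filter (fun g => g v ∈ X)).filter (fun g => g v = w)).card = m := by
      intro w hw
      rw [← hfibcard w]
      congr 1
      ext g
      simp only [hfib, mem_filter]
      constructor
      · rintro ⟨⟨h1, _⟩, h3⟩
        exact ⟨h1, h3⟩
      · rintro ⟨h1, h3⟩
        exact ⟨⟨h1, h3 ▸ hw⟩, h3⟩
    rw [sum_congr rfl this, sum_const, smul_eq_mul]
  set S := Aut.filter (fun g => g v ∈ N1 A v) with hS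
  set U := Aut.filter (fun g => g v ∈ N1 A v ∪ N2 A v) with hU
  set T := insert (1 : Equiv.Perm V) S with hT
  have hSmem : ∀ g, g ∈ S ↔ IsAut A g ∧ A v (g v) := fun g => by
    simp [hS, hmemAut, N1]
  have h1S : (1 : Equiv.Perm V) ∉ S := by
    rw [hSmem]
    rintro ⟨_, h⟩
    exact horient _ _ h h
  have hTcard : T.card = (N1 A v).card * m + 1 := by
    rw [hT, card_insert_of_notMem h1S, hS, hcount]
  have hTT : T * T ⊆ insert 1 U := by
    intro g hg
    obtain ⟨a, ha, b, hb, rfl⟩ := mem_mul.1 hg
    rw [hT, mem_insert] at ha hb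
    rcases ha with rfl | ha
    · rcases hb with rfl | hb
      · simp
      · refine mem_insert_of_mem ?_
        rw [one_mul]
        simp only [hS, hU, mem_filter] at hb ⊢
        exact ⟨hb.1, mem_union_left _ hb.2⟩
    · rcases hb with rfl | hb
      · refine mem_insert_of_mem ?_
        rw [mul_one]
        simp only [hS, hU, mem_filter] at ha ⊢
        exact ⟨ha.1, mem_union_left _ ha.2⟩
      · refine mem_insert_of_mem ?_
        rw [hSmem] at ha hb
        simp only [hU, mem_filter, hmemAut]
        refine ⟨ha.1.mul hb.1, ?_⟩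
        rw [Equiv.Perm.mul_apply]
        exact two_step_mem A horient v (a v) (a (b v)) ha.2 ((ha.1 _ _).2 hb.2)
  have huniq : ∀ x ∈ T, ∀ y ∈ T, x * y = 1 → x = 1 := by
    intro x hx y hy hxy
    rw [hT, mem_insert] at hx hy
    rcases hx with rfl | hx
    · rfl
    · rcases hy with rfl | hy
      · simpa using hxy
      · exfalso
        rw [hSmem] at hx hy
        have hyx : y = x⁻¹ := eq_inv_of_mul_eq_one_right hxy
        subst hyx
        have h1 := (hx.1 v (x⁻¹ v)).2 hy.2
        have h2 : x (x⁻¹ v) = v := x.apply_symm_apply v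
        rw [h2] at h1
        exact horient _ _ hx.2 h1
  have h1T : (1 : Equiv.Perm V) ∈ T := mem_insert_self _ _
  have hle : T.card ≤ Fintype.card (Equiv.Perm V) := card_le_univ T
  have hK := kemperman (2 * Fintype.card (Equiv.Perm V) - (T.card + T.card)) T.card T T
    (by omega) rfl h1T h1T huniq
  have hc1 := card_le_card hTT
  have hc2 := card_insert_le (1 : Equiv.Perm V) U
  have hc3 : U.card = (N1 A v ∪ N2 A v).card * m := hcount _
  have hc4 := card_union_le (N1 A v) (N2 A v)
  have hc5 : (N1 A v ∪ N2 A v).card * m ≤ ((N1 A v).card + (N2 A v).card) * m :=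
    Nat.mul_le_mul_right _ hc4
  have hfin : (N1 A v).card * m ≤ (N2 A v).card * m := by
    rw [add_mul] at hc5
    omega
  exact Nat.le_of_mul_le_mul_right hfin hmpos

end Digraph

end Vale.Agent.Results.P038.VertexTransitive
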