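import Vale.Agent.Results.P038.DenseOutdegree
import Vale.Agent.Results.P038.SmallCodegree
import Vale.Agent.Results.P038.VertexTransitive

/-!
# P038: three classes of oriented graphs with a Seymour vertex, in one statement
-/

namespace Vale.Agent.Results.P038.A_Combined

open Finset
open Vale.Agent.Results.P038.VertexTransitive (N1 N2 IsAut)

theorem result {V : Type*} [Fintype V] [DecidableEq V] (A : V → V → Prop) [DecidableRel A]
    (horient : ∀ u v, A u v → ¬ A v u) :
    (Nonempty V → ∀ δ : ℕ, (∀ v, δ ≤ (N1 A v).card) → Fintype.card V ≤ 2 * δ + 2 →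
      ∃ v, (N1 A v).card ≤ (N2 A v).card) ∧
    (Nonempty V → ∀ δ t : ℕ, (∀ u, δ ≤ (N1 A u).card) →
      (∀ x u u', A x u → A x u' → u ≠ u' → (N1 A u ∩ N1 A u').card ≤ t) → 2 * t + 1 ≤ δ →
      (∃ v, (N1 A v).card ≤ (N2 A v).card) ∧
      ∀ v, (∀ u, (N1 A v).card ≤ (N1 A u).card) → (N1 A v).card ≤ (N2 A v).card) ∧
    ((∀ x y : V, ∃ φ : Equiv.Perm V, IsAut A φ ∧ φ x = y) →
      ∀ v, (N1 A v).card ≤ (N2 A v).card) := by
  refine ⟨?_, ?_, ?_⟩
  · intro hne δ hδ hn
    exact Vale.Agent.Results.P038.DenseOutdegree.result A horient δ hδ hn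
  · intro hne δ t hδ hco ht
    exact Vale.Agent.Results.P038.SmallCodegree.result A horient δ t hδ hco ht
  · intro htrans v
    exact Vale.Agent.Results.P038.VertexTransitive.result A horient htrans v

end Vale.Agent.Results.P038.A_Combined
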