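import Mathlib

namespace Vale.Agent.Results.P038.DenseOutdegree

open Finset

variable {V : Type*} [Fintype V] [DecidableEq V]

/-- First out-neighbourhood of `v` in the digraph with arc relation `A`. -/
def N1 (A : V → V → Prop) [DecidableRel A] (v : V) : Finset V :=
  univ.filter (fun u => A v u)

/-- Second out-neighbourhood of `v`: vertices at directed distance exactly two from `v`. -/
def N2 (A : V → V → Prop) [DecidableRel A] (v : V) : Finset V :=
  univ.filter (fun w => w ≠ v ∧ ¬ A v w ∧ ∃ u, A v u ∧ A u w)

omit [Fintype V] in
/-- In an induced subdigraph on a nonempty vertex set `F` of an oriented graph some vertex has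
out-degree inside `F` at most `(|F| - 1) / 2`. -/
theorem exists_small_outdeg (A : V → V → Prop) [DecidableRel A]
    (horient : ∀ u v, A u v → ¬ A v u) (F : Finset V) (hF : F.Nonempty) :
    ∃ v ∈ F, 2 * (F.filter (fun u => A v u)).card + 1 ≤ F.card := by
  by_contra hcon
  push Not at hcon
  have h1 : ∑ v ∈ F, F.card ≤ ∑ v ∈ F, 2 * (F.filter (fun u => A v u)).card := by
    apply Finset.sum_le_sum
    intro v hv
    have := hcon v hv
    omega
  have h2 : ∑ v ∈ F, (F.filter (fun u => A v u)).card
      = ∑ v ∈ F, (F.filter (fun u => A u v)).card :=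
    Finset.sum_card_bipartiteAbove_eq_sum_card_bipartiteBelow A (s := F) (t := F)
  have h3 : ∑ v ∈ F, ((F.filter (fun u => A v u)).card + (F.filter (fun u => A u v)).card + 1)
      ≤ ∑ v ∈ F, F.card := by
    apply Finset.sum_le_sum
    intro v hv
    have hdisj : Disjoint (F.filter (fun u => A v u)) (F.filter (fun u => A u v)) := by
      rw [Finset.disjoint_left]
      intro u hu hu'
      rw [Finset.mem_filter] at hu hu'
      exact horient _ _ hu.2 hu'.2
    have hsub : (F.filter (fun u => A v u)) ∪ (F.filter (fun u => A u v)) ⊆ F.erase v := by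
      intro u hu
      rw [Finset.mem_union, Finset.mem_filter, Finset.mem_filter] at hu
      rw [Finset.mem_erase]
      rcases hu with hu | hu
      · refine ⟨?_, hu.1⟩
        rintro rfl
        exact horient _ _ hu.2 hu.2
      · refine ⟨?_, hu.1⟩
        rintro rfl
        exact horient _ _ hu.2 hu.2
    have hc := Finset.card_le_card hsub
    rw [Finset.card_union_of_disjoint hdisj, Finset.card_erase_of_mem hv] at hc
    have hpos : 0 < F.card := Finset.card_pos.mpr ⟨v, hv⟩
    omega
  rw [Finset.sum_add_distrib, Finset.sum_add_distrib, ← h2] at h3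
  rw [← Finset.mul_sum] at h1
  simp only [Finset.sum_const, smul_eq_mul, mul_one] at h1 h3
  have hpos : 0 < F.card := Finset.card_pos.mpr hF
  omega

/-- Seymour's second neighbourhood conjecture holds for every oriented graph on `n` vertices whose
minimum out-degree `δ` satisfies `n ≤ 2 δ + 2`. -/
theorem result (A : V → V → Prop) [DecidableRel A] [Nonempty V]
    (horient : ∀ u v, A u v → ¬ A v u)
    (δ : ℕ) (hδ : ∀ v, δ ≤ (N1 A v).card) (hn : Fintype.card V ≤ 2 * δ + 2) :
    ∃ v, (N1 A v).card ≤ (N2 A v).card := by
  classical
  by_contra hcon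
  push Not at hcon
  set n := Fintype.card V with hn_def
  have hnpos : 0 < n := Fintype.card_pos
  let Far : V → V → Prop := fun v z => z ≠ v ∧ ¬ A v z ∧ ¬ ∃ u, A v u ∧ A u z
  let U : V → Finset V := fun v => univ.filter (fun z => Far v z)
  let F : V → Finset V := fun z => univ.filter (fun v => Far v z)
  let Nin : V → Finset V := fun z => univ.filter (fun u => A u z)
  -- (1) failure of the second neighbourhood property gives many far vertices
  have step1 : ∀ v, n ≤ (U v).card + 2 * (N1 A v).card := by
    intro v
    have hcover : (univ : Finset V) ⊆ (({v} ∪ N1 A v) ∪ N2 A v) ∪ U v := by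
      intro z _
      simp only [Finset.mem_union, Finset.mem_singleton, N1, N2, U, Far, Finset.mem_filter,
        Finset.mem_univ, true_and]
      by_cases h1 : z = v
      · exact Or.inl (Or.inl (Or.inl h1))
      · by_cases h2 : A v z
        · exact Or.inl (Or.inl (Or.inr h2))
        · by_cases h3 : ∃ u, A v u ∧ A u z
          · exact Or.inl (Or.inr ⟨h1, h2, h3⟩)
          · exact Or.inr ⟨h1, h2, h3⟩
    have hc := Finset.card_le_card hcover
    have h1 := Finset.card_union_le (({v} ∪ N1 A v) ∪ N2 A v) (U v)
    have h2 := Finset.card_union_le ({v} ∪ N1 A v) (N2 A v)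
    have h3 := Finset.card_union_le ({v} : Finset V) (N1 A v)
    have h4 : ({v} : Finset V).card = 1 := Finset.card_singleton v
    have h5 := hcon v
    rw [Finset.card_univ] at hc
    omega
  -- double counting
  have step3a : ∑ v, (U v).card = ∑ z, (F z).card :=
    Finset.sum_card_bipartiteAbove_eq_sum_card_bipartiteBelow Far (s := univ) (t := univ)
  have step3b : ∑ v, (N1 A v).card = ∑ z, (Nin z).card :=
    Finset.sum_card_bipartiteAbove_eq_sum_card_bipartiteBelow A (s := univ) (t := univ)
  -- degrees
  have hdeg : ∀ v, (N1 A v).card + (Nin v).card + 1 ≤ n := by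
    intro v
    have hdisj : Disjoint (N1 A v) (Nin v) := by
      rw [Finset.disjoint_left]
      intro u hu hu'
      simp only [N1, Nin, Finset.mem_filter, Finset.mem_univ, true_and] at hu hu'
      exact horient _ _ hu hu'
    have hsub : N1 A v ∪ Nin v ⊆ univ.erase v := by
      intro u hu
      simp only [N1, Nin, Finset.mem_union, Finset.mem_filter, Finset.mem_univ, true_and] at hu
      rw [Finset.mem_erase]
      refine ⟨?_, Finset.mem_univ _⟩
      rintro rfl
      rcases hu with hu | hu <;> exact horient _ _ hu hu
    have hc := Finset.card_le_card hsub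
    rw [Finset.card_union_of_disjoint hdisj, Finset.card_erase_of_mem (Finset.mem_univ v),
      Finset.card_univ] at hc
    omega
  -- (2) few vertices are far from a given vertex
  have step2 : ∀ z, (F z).card + 2 * (Nin z).card ≤ n ∧
      (2 * (Nin z).card < n → (F z).card + 2 * (Nin z).card + 1 ≤ n) := by
    intro z
    by_cases hF : (F z).Nonempty
    · obtain ⟨v, hvF, hv⟩ := exists_small_outdeg A horient (F z) hF
      let Y : Finset V := univ.filter (fun y => y ≠ z ∧ ¬ A y z)
      have hFY : F z ⊆ Y := by
        intro w hw
        simp only [F, Far, Y, Finset.mem_filter, Finset.mem_univ, true_and] at hw ⊢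
        exact ⟨fun h => hw.1 h.symm, hw.2.1⟩
      have hvFar : Far v z := by
        simpa only [F, Finset.mem_filter, Finset.mem_univ, true_and] using hvF
      have hN1 : N1 A v ⊆ ((F z).filter (fun u => A v u)) ∪ (Y \ F z) := by
        intro u hu
        simp only [N1, Finset.mem_filter, Finset.mem_univ, true_and] at hu
        by_cases huF : u ∈ F z
        · exact Finset.mem_union_left _ (Finset.mem_filter.mpr ⟨huF, hu⟩)
        · apply Finset.mem_union_right
          rw [Finset.mem_sdiff]
          refine ⟨?_, huF⟩
          simp only [Y, Finset.mem_filter, Finset.mem_univ, true_and]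
          refine ⟨?_, ?_⟩
          · rintro rfl
            exact hvFar.2.1 hu
          · intro huz
            exact hvFar.2.2 ⟨u, hu, huz⟩
      have hY : Y.card + (Nin z).card + 1 ≤ n := by
        have hdisj : Disjoint Y (Nin z) := by
          rw [Finset.disjoint_left]
          intro u hu hu'
          simp only [Y, Nin, Finset.mem_filter, Finset.mem_univ, true_and] at hu hu'
          exact hu.2 hu'
        have hsub : Y ∪ Nin z ⊆ univ.erase z := by
          intro u hu
          simp only [Y, Nin, Finset.mem_union, Finset.mem_filter, Finset.mem_univ, true_and] at hu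
          rw [Finset.mem_erase]
          refine ⟨?_, Finset.mem_univ _⟩
          rcases hu with hu | hu
          · exact hu.1
          · rintro rfl
            exact horient _ _ hu hu
        have hc := Finset.card_le_card hsub
        rw [Finset.card_union_of_disjoint hdisj, Finset.card_erase_of_mem (Finset.mem_univ z),
          Finset.card_univ] at hc
        omega
      have hc1 := Finset.card_le_card hN1
      have hc2 := Finset.card_union_le ((F z).filter (fun u => A v u)) (Y \ F z)
      have hc3 : (Y \ F z).card = Y.card - (F z).card := Finset.card_sdiff_of_subset hFY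
      have hc4 := Finset.card_le_card hFY
      have hc5 := hδ v
      constructor
      · omega
      · intro _
        omega
    · rw [Finset.not_nonempty_iff_eq_empty] at hF
      have h1 := hdeg z
      have h2 := hδ z
      rw [hF, Finset.card_empty]
      constructor
      · omega
      · intro h
        omega
  -- some vertex has in-degree less than n / 2
  have hex : ∃ z, 2 * (Nin z).card < n := by
    by_contra hno
    push Not at hno
    have h1 : ∑ _z : V, n ≤ ∑ z, 2 * (Nin z).card := Finset.sum_le_sum (fun z _ => hno z)
    have h2 : ∑ v, ((N1 A v).card + (Nin v).card + 1) ≤ ∑ _v : V, n :=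
      Finset.sum_le_sum (fun v _ => hdeg v)
    rw [Finset.sum_add_distrib, Finset.sum_add_distrib, step3b] at h2
    rw [← Finset.mul_sum] at h1
    simp only [Finset.sum_const, smul_eq_mul, mul_one, Finset.card_univ] at h1 h2
    omega
  obtain ⟨z0, hz0⟩ := hex
  have hlow : ∑ _v : V, n ≤ ∑ v, ((U v).card + 2 * (N1 A v).card) :=
    Finset.sum_le_sum (fun v _ => step1 v)
  have hupp : ∑ z, ((F z).card + 2 * (Nin z).card) < ∑ _z : V, n := by
    apply Finset.sum_lt_sum
    · intro z _
      exact (step2 z).1
    · refine ⟨z0, Finset.mem_univ _, ?_⟩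
      have := (step2 z0).2 hz0
      omega
  rw [Finset.sum_add_distrib, ← Finset.mul_sum, step3a, step3b] at hlow
  rw [Finset.sum_add_distrib, ← Finset.mul_sum] at hupp
  omega

end Vale.Agent.Results.P038.DenseOutdegree
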